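import Mathlib

/-!
# P157: the Ising perceptron with Gaussian patterns, definitions
-/

namespace P157C

open MeasureTheory ProbabilityTheory Finset

/-- the point of `{-1,1}^N` given by `σ` -/
def spin {N : ℕ} (σ : Fin N → Bool) (j : Fin N) : ℝ := if σ j then 1 else -1

/-- `g · x / √N` for `x = spin σ` -/
noncomputable def dot {N : ℕ} (σ : Fin N → Bool) (v : Fin N → ℝ) : ℝ :=
  (∑ j, v j * spin σ j) / Real.sqrt N

/-- `∫ exp (∑_a F_a (g^a · x / √N)) dμ_N(x)`, `μ_N` uniform on the Ising cube -/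
noncomputable def part {N M : ℕ} (F : Fin M → ℝ → ℝ) (g : Fin M → Fin N → ℝ) : ℝ :=
  (2 : ℝ)⁻¹ ^ N * ∑ σ : Fin N → Bool, Real.exp (∑ a, F a (dot σ (g a)))

/-- the law of `M` independent standard Gaussian vectors in `ℝ^N` -/
noncomputable def patterns (N M : ℕ) : Measure (Fin M → Fin N → ℝ) :=
  Measure.pi fun _ => Measure.pi fun _ => gaussianReal 0 1

/-- the mean pressure `E p_N(f)` with `M = ⌊α N⌋` patterns -/
noncomputable def meanPressure (α : ℝ) (f : ℝ → ℝ) (N : ℕ) : ℝ :=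
  ∫ g, (1 / (N : ℝ)) * Real.log (part (M := ⌊α * N⌋₊) (fun _ => f) g) ∂(patterns N ⌊α * N⌋₊)

end P157C
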