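import Vale.Agent.P157C.Defs

namespace P157C

open MeasureTheory ProbabilityTheory Finset WithLp

theorem law_dot {N : ℕ} (hN : 0 < N) (s : Fin N → ℝ) (hs : ∀ j, s j ^ 2 = 1) :
    (Measure.pi fun _ : Fin N => gaussianReal 0 1).map
      (fun v => (∑ j, v j * s j) / Real.sqrt N) = gaussianReal 0 1 := by
  have hN' : (0 : ℝ) < N := by exact_mod_cast hN
  set x : EuclideanSpace ℝ (Fin N) := toLp 2 s with hx
  set L : StrongDual ℝ (EuclideanSpace ℝ (Fin N)) := (1 / Real.sqrt N) • innerSL ℝ x with hL
  have hLv : ∀ v : Fin N → ℝ, L (toLp 2 v) = (∑ j, v j * s j) / Real.sqrt N := by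
    intro v
    rw [hL]
    simp only [smul_apply, innerSL_apply_apply, smul_eq_mul, PiLp.inner_apply, hx]
    have : ∀ j, inner ℝ (s j) (v j) = v j * s j := fun j => by simp
    simp only [this]
    ring
  have hnx : ‖x‖ = Real.sqrt N := by
    rw [EuclideanSpace.norm_eq]
    congr 1
    have : ∀ j, ‖x j‖ ^ 2 = 1 := by
      intro j
      rw [Real.norm_eq_abs, sq_abs]
      exact hs j
    rw [sum_congr rfl fun j _ => this j]
    simp
  have hnL : ‖L‖ = 1 := by
    rw [hL, norm_smul, innerSL_apply_norm, hnx, Real.norm_eq_abs,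
      abs_of_nonneg (by positivity)]
    field_simp
  have h1 : (Measure.pi fun _ : Fin N => gaussianReal 0 1).map
      (fun v => (∑ j, v j * s j) / Real.sqrt N)
      = (stdGaussian (EuclideanSpace ℝ (Fin N))).map L := by
    rw [← map_pi_eq_stdGaussian, Measure.map_map L.continuous.measurable (by fun_prop)]
    congr 1
    funext v
    exact (hLv v).symm
  rw [h1, IsGaussian.map_eq_gaussianReal L, integral_strongDual_stdGaussian,
    variance_dual_stdGaussian, hnL]
  congr 1
  norm_num

theorem law_spin {N : ℕ} (hN : 0 < N) (σ : Fin N → Bool) :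
    (Measure.pi fun _ : Fin N => gaussianReal 0 1).map (dot σ) = gaussianReal 0 1 :=
  law_dot hN (spin σ) fun j => by
    unfold spin
    split_ifs <;> norm_num

end P157C
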