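import Vale.Agent.P157C.Tele
import Vale.Agent.P157C.Law

namespace P157C

open MeasureTheory ProbabilityTheory Finset Filter Topology

theorem lip_main (α : ℝ) (hα : 0 ≤ α) (f f' : ℝ → ℝ) (hf : Measurable f) (hf' : Measurable f')
    (K : ℝ) (hK : ∀ t, |f t| ≤ K) (hK' : ∀ t, |f' t| ≤ K) (N : ℕ) (hN : 0 < N) :
    |meanPressure α f N - meanPressure α f' N|
      ≤ α * Real.exp (2 * K) * ∫ t, |f t - f' t| ∂(gaussianReal 0 1) :=
  lip (fun _ hN σ => law_spin hN σ) α hα f f' hf hf' K hK hK' N hN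

theorem clip_abs (K : ℝ) (hK : 0 ≤ K) (u : ℝ) : |max (-K) (min K u)| ≤ K := by
  rw [abs_le]
  exact ⟨le_max_left _ _, max_le (by linarith) (min_le_left _ _)⟩

theorem clip_sub (K : ℝ) (u y : ℝ) (hy : |y| ≤ K) : |max (-K) (min K u) - y| ≤ |u - y| := by
  obtain ⟨h1, h2⟩ := abs_le.1 hy
  have e : y = max (-K) (min K y) := by
    rw [min_eq_right h2, max_eq_right h1]
  conv_lhs => rw [e]
  refine (abs_max_sub_max_le_max _ _ _ _).trans ?_
  rw [sub_self, abs_zero]
  refine max_le (abs_nonneg _) ?_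
  refine (abs_min_sub_min_le_max _ _ _ _).trans ?_
  rw [sub_self, abs_zero]
  exact max_le (abs_nonneg _) le_rfl

theorem reduce (α : ℝ) (hα : 0 ≤ α)
    (H : ∀ f : ℝ → ℝ, Continuous f → HasCompactSupport f →
      ∃ L : ℝ, Tendsto (meanPressure α f) atTop (𝓝 L))
    (f : ℝ → ℝ) (hf : Measurable f) (K : ℝ) (hK : ∀ t, |f t| ≤ K) :
    ∃ L : ℝ, Tendsto (meanPressure α f) atTop (𝓝 L) := by
  have hK0 : 0 ≤ K := (abs_nonneg _).trans (hK 0)
  have hint : Integrable f (gaussianReal 0 1) :=
    Integrable.of_bound hf.aestronglyMeasurable K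
      (Eventually.of_forall fun t => by rw [Real.norm_eq_abs]; exact hK t)
  have hex : ∀ k : ℕ, ∃ g : ℝ → ℝ, HasCompactSupport g ∧
      ∫ x, ‖f x - g x‖ ∂(gaussianReal 0 1) ≤ 1 / ((k : ℝ) + 1) ∧ Continuous g ∧
      Integrable g (gaussianReal 0 1) := fun k =>
    hint.exists_hasCompactSupport_integral_sub_le (by positivity)
  choose g hg1 hg2 hg3 hg4 using hex
  set fk : ℕ → ℝ → ℝ := fun k t => max (-K) (min K (g k t)) with hfk
  have hcont : ∀ k, Continuous (fk k) := fun k =>
    continuous_const.max (continuous_const.min (hg3 k))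
  have hsupp : ∀ k, HasCompactSupport (fk k) := by
    intro k
    refine (hg1 k).comp_left (g := fun u : ℝ => max (-K) (min K u)) ?_
    simp [hK0]
  have hb : ∀ k t, |fk k t| ≤ K := fun k t => clip_abs K hK0 _
  choose l hl using fun k => H (fk k) (hcont k) (hsupp k)
  have hconv : Tendsto (fun k => ∫ t, |fk k t - f t| ∂(gaussianReal 0 1)) atTop (𝓝 0) := by
    refine squeeze_zero (fun k => integral_nonneg fun t => abs_nonneg _) (fun k => ?_)
      tendsto_one_div_add_atTop_nhds_zero_nat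
    refine le_trans ?_ (hg2 k)
    refine integral_mono ?_ (hint.sub (hg4 k)).norm fun t => ?_
    · refine Integrable.of_bound (((hcont k).measurable.sub hf).abs).aestronglyMeasurable (2 * K)
        (Eventually.of_forall fun t => ?_)
      rw [Real.norm_eq_abs, abs_abs]
      refine (abs_sub _ _).trans ?_
      linarith [hb k t, hK t]
    · have := clip_sub K (g k t) (f t) (hK t)
      rw [Real.norm_eq_abs, abs_sub_comm (f t)]
      exact this
  obtain ⟨L, _, hL⟩ := closure_lim (fun _ hN σ => law_spin hN σ) α hα K fk f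
    (fun k => (hcont k).measurable) hf hb hK hconv l hl
  exact ⟨L, hL⟩

end P157C
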