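import Vale.Agent.P157C.Defs

namespace P157C

open MeasureTheory ProbabilityTheory Finset

theorem spin_sq {N : ℕ} (σ : Fin N → Bool) (j : Fin N) : spin σ j ^ 2 = 1 := by
  unfold spin
  split_ifs <;> norm_num

theorem dot_cont {N : ℕ} (σ : Fin N → Bool) : Continuous (dot σ) := by
  unfold dot
  fun_prop

theorem dot_meas {N : ℕ} (σ : Fin N → Bool) : Measurable (dot σ) := (dot_cont σ).measurable

/-- deterministic one-pattern comparison -/
theorem det_le {κ : Type} [Fintype κ] [Nonempty κ] (W φ ψ : κ → ℝ) (hW : ∀ s, 0 < W s) (K : ℝ)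
    (h1 : ∀ s, |φ s| ≤ K) (h2 : ∀ s, |ψ s| ≤ K) :
    Real.log (∑ s, W s * Real.exp (φ s)) - Real.log (∑ s, W s * Real.exp (ψ s))
      ≤ Real.exp (2 * K) * ∑ s, W s / (∑ s, W s) * |φ s - ψ s| := by
  set A := ∑ s, W s * Real.exp (φ s) with hA
  set B := ∑ s, W s * Real.exp (ψ s) with hB
  set T := ∑ s, W s with hT
  have hA0 : 0 < A := sum_pos (fun s _ => mul_pos (hW s) (Real.exp_pos _)) univ_nonempty
  have hB0 : 0 < B := sum_pos (fun s _ => mul_pos (hW s) (Real.exp_pos _)) univ_nonempty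
  have hT0 : 0 < T := sum_pos (fun s _ => hW s) univ_nonempty
  have hBT : Real.exp (-K) * T ≤ B := by
    rw [hB, hT, mul_sum]
    refine sum_le_sum fun s _ => ?_
    rw [mul_comm]
    exact mul_le_mul_of_nonneg_left (Real.exp_le_exp.2 (abs_le.1 (h2 s)).1) (hW s).le
  have hAB : A - B ≤ Real.exp K * ∑ s, W s * |φ s - ψ s| := by
    rw [hA, hB, ← sum_sub_distrib, mul_sum]
    refine sum_le_sum fun s _ => ?_
    rw [← mul_sub]
    have e1 : Real.exp (φ s) - Real.exp (ψ s) ≤ Real.exp K * |φ s - ψ s| := by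
      have e2 : Real.exp (φ s) - Real.exp (ψ s)
          = Real.exp (φ s) * (1 - Real.exp (ψ s - φ s)) := by
        rw [mul_sub, mul_one, ← Real.exp_add]
        congr 2
        ring
      have e3 : 1 - Real.exp (ψ s - φ s) ≤ |φ s - ψ s| := by
        have := Real.add_one_le_exp (ψ s - φ s)
        have h3 := le_abs_self (φ s - ψ s)
        linarith
      have e4 : Real.exp (φ s) ≤ Real.exp K := Real.exp_le_exp.2 (abs_le.1 (h1 s)).2
      rw [e2]
      calc Real.exp (φ s) * (1 - Real.exp (ψ s - φ s))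
          ≤ Real.exp (φ s) * |φ s - ψ s| :=
            mul_le_mul_of_nonneg_left e3 (Real.exp_pos _).le
        _ ≤ Real.exp K * |φ s - ψ s| := mul_le_mul_of_nonneg_right e4 (abs_nonneg _)
    calc W s * (Real.exp (φ s) - Real.exp (ψ s)) ≤ W s * (Real.exp K * |φ s - ψ s|) :=
          mul_le_mul_of_nonneg_left e1 (hW s).le
      _ = Real.exp K * (W s * |φ s - ψ s|) := by ring
  set D := ∑ s, W s * |φ s - ψ s| with hD
  have hD0 : 0 ≤ D := sum_nonneg fun s _ => mul_nonneg (hW s).le (abs_nonneg _)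
  have hDT : ∑ s, W s / T * |φ s - ψ s| = D / T := by
    rw [hD, sum_div]
    exact sum_congr rfl fun s _ => by ring
  rw [hDT, ← Real.log_div hA0.ne' hB0.ne']
  have hlog : Real.log (A / B) ≤ A / B - 1 := Real.log_le_sub_one_of_pos (div_pos hA0 hB0)
  have h3 : A / B - 1 = (A - B) / B := by field_simp
  rw [h3] at hlog
  refine hlog.trans ?_
  rw [div_le_iff₀ hB0]
  refine hAB.trans ?_
  have e5 : Real.exp (2 * K) * (D / T) * (Real.exp (-K) * T) = Real.exp K * D := by
    have : Real.exp (2 * K) * Real.exp (-K) = Real.exp K := by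
      rw [← Real.exp_add]
      congr 1
      ring
    calc Real.exp (2 * K) * (D / T) * (Real.exp (-K) * T)
        = (Real.exp (2 * K) * Real.exp (-K)) * D * (T / T) := by ring
      _ = Real.exp K * D := by rw [this, div_self hT0.ne', mul_one]
  rw [← e5]
  exact mul_le_mul_of_nonneg_left hBT (mul_nonneg (Real.exp_pos _).le (div_nonneg hD0 hT0.le))

/-- weight of the patterns other than `a` -/
noncomputable def wt {N M : ℕ} (F : Fin M → ℝ → ℝ) (a : Fin M) (σ : Fin N → Bool)
    (v : (i : ((univ : Finset (Fin M)).erase a)) → (Fin N → ℝ)) : ℝ :=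
  Real.exp (∑ b : ((univ : Finset (Fin M)).erase a), F b (dot σ (v b)))

theorem part_eq {N M : ℕ} (F : Fin M → ℝ → ℝ) (a : Fin M) (g : Fin M → Fin N → ℝ) :
    part F g = (2 : ℝ)⁻¹ ^ N * ∑ σ : Fin N → Bool,
      wt F a σ (fun i => g i) * Real.exp (F a (dot σ (g a))) := by
  unfold part wt
  congr 1
  refine sum_congr rfl fun σ _ => ?_
  rw [← Real.exp_add]
  congr 1
  rw [← sum_erase_add _ _ (mem_univ a)]
  congr 1
  exact (sum_coe_sort ((univ : Finset (Fin M)).erase a) (fun b => F b (dot σ (g b)))).symm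

theorem part_pos {N M : ℕ} (F : Fin M → ℝ → ℝ) (g : Fin M → Fin N → ℝ) : 0 < part F g := by
  unfold part
  have : 0 < ∑ σ : Fin N → Bool, Real.exp (∑ a, F a (dot σ (g a))) :=
    sum_pos (fun σ _ => Real.exp_pos _) univ_nonempty
  positivity

theorem part_meas {N M : ℕ} (F : Fin M → ℝ → ℝ) (hF : ∀ a, Measurable (F a)) :
    Measurable (part F : (Fin M → Fin N → ℝ) → ℝ) := by
  unfold part
  refine Measurable.const_mul ?_ _
  refine Finset.measurable_sum _ fun σ _ => ?_
  refine Real.measurable_exp.comp ?_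
  refine Finset.measurable_sum _ fun a _ => ?_
  exact (hF a).comp ((dot_meas σ).comp (measurable_pi_apply a))

instance (N M : ℕ) : IsProbabilityMeasure (patterns N M) := by
  unfold patterns
  infer_instance

theorem logpart_int {N M : ℕ} (F : Fin M → ℝ → ℝ) (hF : ∀ a, Measurable (F a)) (K : ℝ)
    (hK : ∀ a t, |F a t| ≤ K) :
    Integrable (fun g : Fin M → Fin N → ℝ => Real.log (part F g)) (patterns N M) := by
  refine Integrable.of_bound ((part_meas F hF).log.aestronglyMeasurable) (M * K) ?_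
  refine Filter.Eventually.of_forall fun g => ?_
  have hb : ∀ σ : Fin N → Bool, |∑ a, F a (dot σ (g a))| ≤ M * K := by
    intro σ
    refine (abs_sum_le_sum_abs _ _).trans ?_
    refine (sum_le_sum fun a _ => hK a _).trans ?_
    simp
  have hcard : (2 : ℝ)⁻¹ ^ N * ∑ _σ : Fin N → Bool, (1 : ℝ) = 1 := by
    simp only [sum_const, card_univ, Fintype.card_fun, Fintype.card_bool, Fintype.card_fin,
      nsmul_eq_mul, mul_one]
    push_cast
    rw [← mul_pow]
    norm_num
  have hup : part F g ≤ Real.exp (M * K) := by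
    have : part F g ≤ (2 : ℝ)⁻¹ ^ N * ∑ _σ : Fin N → Bool, Real.exp (M * K) := by
      unfold part
      refine mul_le_mul_of_nonneg_left (sum_le_sum fun σ _ => ?_) (by positivity)
      exact Real.exp_le_exp.2 (abs_le.1 (hb σ)).2
    refine this.trans (le_of_eq ?_)
    have h2 : ∑ _σ : Fin N → Bool, Real.exp (M * K)
        = (∑ _σ : Fin N → Bool, (1 : ℝ)) * Real.exp (M * K) := by
      rw [sum_mul]
      simp
    rw [h2, ← mul_assoc, hcard, one_mul]
  have hlo : Real.exp (-(M * K)) ≤ part F g := by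
    have : (2 : ℝ)⁻¹ ^ N * ∑ _σ : Fin N → Bool, Real.exp (-(M * K)) ≤ part F g := by
      unfold part
      refine mul_le_mul_of_nonneg_left (sum_le_sum fun σ _ => ?_) (by positivity)
      exact Real.exp_le_exp.2 (abs_le.1 (hb σ)).1
    refine le_trans (le_of_eq ?_) this
    have h2 : ∑ _σ : Fin N → Bool, Real.exp (-(M * K))
        = (∑ _σ : Fin N → Bool, (1 : ℝ)) * Real.exp (-(M * K)) := by
      rw [sum_mul]
      simp
    rw [h2, ← mul_assoc, hcard, one_mul]
  rw [Real.norm_eq_abs, abs_le]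
  constructor
  · have := Real.log_le_log (Real.exp_pos _) hlo
    rwa [Real.log_exp] at this
  · have := Real.log_le_log (part_pos F g) hup
    rwa [Real.log_exp] at this

end P157C
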