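import Vale.Agent.P157C.Main

namespace P157C

open MeasureTheory ProbabilityTheory Finset

theorem wt_pos {N M : ℕ} (F : Fin M → ℝ → ℝ) (a : Fin M) (σ : Fin N → Bool)
    (v : (i : ((univ : Finset (Fin M)).erase a)) → (Fin N → ℝ)) : 0 < wt F a σ v :=
  Real.exp_pos _

theorem wt_meas {N M : ℕ} (F : Fin M → ℝ → ℝ) (hF : ∀ a, Measurable (F a)) (a : Fin M)
    (σ : Fin N → Bool) : Measurable (wt F a σ) := by
  unfold wt
  refine Real.measurable_exp.comp ?_
  refine Finset.measurable_sum _ fun b _ => ?_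
  exact (hF b).comp ((dot_meas σ).comp (measurable_pi_apply b))

/-- one factor -/
theorem indep_mul {N M : ℕ} (a : Fin M) (σ : Fin N → Bool)
    (w : ((i : ((univ : Finset (Fin M)).erase a)) → (Fin N → ℝ)) → ℝ) (hw : Measurable w)
    (h : ℝ → ℝ) (hh : Measurable h)
    (law : (Measure.pi fun _ : Fin N => gaussianReal 0 1).map (dot σ) = gaussianReal 0 1) :
    ∫ g, w (fun i => g i) * h (dot σ (g a)) ∂(patterns N M)
      = (∫ g, w (fun i => g i) ∂(patterns N M)) * ∫ t, h t ∂(gaussianReal 0 1) := by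
  have hind : iIndepFun (fun (i : Fin M) (g : Fin M → Fin N → ℝ) => g i) (patterns N M) := by
    have := iIndepFun_pi (μ := fun _ : Fin M => Measure.pi fun _ : Fin N => gaussianReal 0 1)
      (X := fun (_ : Fin M) (v : Fin N → ℝ) => v) (fun i => aemeasurable_id)
    exact this
  have h2 := hind.indepFun_finset ((univ : Finset (Fin M)).erase a) {a}
    (by simp) (fun i => measurable_pi_apply i)
  have hψ : Measurable (fun v : (i : ({a} : Finset (Fin M))) → (Fin N → ℝ) =>
      h (dot σ (v ⟨a, mem_singleton_self a⟩))) :=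
    hh.comp ((dot_meas σ).comp (measurable_pi_apply _))
  have h3 := h2.comp hw hψ
  have h4 := h3.integral_fun_mul_eq_mul_integral
    ((hw.comp (measurable_pi_lambda _ fun i => measurable_pi_apply _)).aestronglyMeasurable)
    ((hψ.comp (measurable_pi_lambda _ fun i => measurable_pi_apply _)).aestronglyMeasurable)
  have h5 : ∫ g, h (dot σ (g a)) ∂(patterns N M) = ∫ t, h t ∂(gaussianReal 0 1) := by
    have e1 : (patterns N M).map (fun g => g a) = Measure.pi fun _ : Fin N => gaussianReal 0 1 :=
      (measurePreserving_eval (fun _ : Fin M => Measure.pi fun _ : Fin N => gaussianReal 0 1)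
        a).map_eq
    rw [← law, integral_map (dot_meas σ).aemeasurable hh.aestronglyMeasurable, ← e1,
      integral_map (measurable_pi_apply a).aemeasurable
        (hh.comp (dot_meas σ)).aestronglyMeasurable]
  rw [← h5]
  exact h4

theorem step_one {N M : ℕ} (F F' : Fin M → ℝ → ℝ) (a : Fin M) (hFF : ∀ b, b ≠ a → F' b = F b)
    (hF : ∀ b, Measurable (F b)) (hF' : ∀ b, Measurable (F' b)) (K : ℝ)
    (hK : ∀ b t, |F b t| ≤ K) (hK' : ∀ b t, |F' b t| ≤ K)
    (law : ∀ σ : Fin N → Bool,
      (Measure.pi fun _ : Fin N => gaussianReal 0 1).map (dot σ) = gaussianReal 0 1) :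
    ∫ g, Real.log (part F g) ∂(patterns N M) - ∫ g, Real.log (part F' g) ∂(patterns N M)
      ≤ Real.exp (2 * K) * ∫ t, |F a t - F' a t| ∂(gaussianReal 0 1) := by
  set h : ℝ → ℝ := fun t => |F a t - F' a t| with hh
  have hhm : Measurable h := ((hF a).sub (hF' a)).abs
  have hhb : ∀ t, |h t| ≤ 2 * K := by
    intro t
    rw [hh, abs_abs]
    refine (abs_sub _ _).trans ?_
    linarith [hK a t, hK' a t]
  have hwt : ∀ σ : Fin N → Bool, wt F' a σ = wt F a σ := by
    intro σ
    funext v
    unfold wt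
    congr 1
    refine sum_congr rfl fun b _ => ?_
    rw [hFF b (mem_erase.1 b.2).1]
  set w : (Fin N → Bool) → ((i : ((univ : Finset (Fin M)).erase a)) → (Fin N → ℝ)) → ℝ :=
    fun σ v => wt F a σ v / ∑ τ : Fin N → Bool, wt F a τ v with hw
  have hS : ∀ v, 0 < ∑ τ : Fin N → Bool, wt F a τ v :=
    fun v => sum_pos (fun τ _ => wt_pos F a τ v) univ_nonempty
  have hwm : ∀ σ, Measurable (w σ) := fun σ =>
    (wt_meas F hF a σ).div (Finset.measurable_sum _ fun τ _ => wt_meas F hF a τ)
  have hw0 : ∀ σ v, 0 ≤ w σ v := fun σ v => div_nonneg (wt_pos F a σ v).le (hS v).le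
  have hw1 : ∀ v, ∑ σ, w σ v = 1 := by
    intro v
    rw [hw]
    simp only
    rw [← sum_div]
    exact div_self (hS v).ne'
  have hwle : ∀ σ v, w σ v ≤ 1 := by
    intro σ v
    rw [← hw1 v]
    exact single_le_sum (f := fun σ => w σ v) (fun τ _ => hw0 τ v) (mem_univ σ)
  have hres : Measurable (fun (g : Fin M → Fin N → ℝ)
      (i : ((univ : Finset (Fin M)).erase a)) => g i) :=
    measurable_pi_lambda _ fun i => measurable_pi_apply _
  -- pointwise bound
  have hpt : ∀ g : Fin M → Fin N → ℝ, Real.log (part F g) - Real.log (part F' g)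
      ≤ Real.exp (2 * K) * ∑ σ, w σ (fun i => g i) * h (dot σ (g a)) := by
    intro g
    rw [part_eq F a g, part_eq F' a g]
    have p1 : 0 < ∑ σ : Fin N → Bool, wt F a σ (fun i => g i) * Real.exp (F a (dot σ (g a))) :=
      sum_pos (fun σ _ => mul_pos (wt_pos _ _ _ _) (Real.exp_pos _)) univ_nonempty
    have p2 : 0 < ∑ σ : Fin N → Bool, wt F' a σ (fun i => g i) * Real.exp (F' a (dot σ (g a))) :=
      sum_pos (fun σ _ => mul_pos (wt_pos _ _ _ _) (Real.exp_pos _)) univ_nonempty
    rw [Real.log_mul (by positivity) p1.ne', Real.log_mul (by positivity) p2.ne']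
    simp only [hwt]
    have := det_le (fun σ : Fin N → Bool => wt F a σ (fun i => g i))
      (fun σ => F a (dot σ (g a))) (fun σ => F' a (dot σ (g a))) (fun σ => wt_pos _ _ _ _) K
      (fun σ => hK _ _) (fun σ => hK' _ _)
    linarith
  have hint1 : ∀ σ : Fin N → Bool, Integrable
      (fun g : Fin M → Fin N → ℝ => w σ (fun i => g i) * h (dot σ (g a))) (patterns N M) := by
    intro σ
    refine Integrable.of_bound ?_ (2 * K) (Filter.Eventually.of_forall fun g => ?_)
    · exact (((hwm σ).comp hres).mul (hhm.comp ((dot_meas σ).comp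
        (measurable_pi_apply a)))).aestronglyMeasurable
    · rw [Real.norm_eq_abs, abs_mul, abs_of_nonneg (hw0 σ _)]
      have e1 := hwle σ (fun i => g i)
      have e2 := hhb (dot σ (g a))
      have e3 := abs_nonneg (h (dot σ (g a)))
      have e4 := hw0 σ (fun i => g i)
      nlinarith
  have hint2 : ∀ σ : Fin N → Bool, Integrable
      (fun g : Fin M → Fin N → ℝ => w σ (fun i => g i)) (patterns N M) := by
    intro σ
    refine Integrable.of_bound ((hwm σ).comp hres).aestronglyMeasurable 1
      (Filter.Eventually.of_forall fun g => ?_)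
    rw [Real.norm_eq_abs, abs_of_nonneg (hw0 σ _)]
    exact hwle σ _
  rw [← integral_sub (logpart_int F hF K hK) (logpart_int F' hF' K hK')]
  refine (integral_mono ((logpart_int F hF K hK).sub (logpart_int F' hF' K hK'))
    ((integrable_finsetSum univ fun σ _ => hint1 σ).const_mul _) hpt).trans ?_
  rw [integral_const_mul, integral_finsetSum univ fun σ _ => hint1 σ]
  refine mul_le_mul_of_nonneg_left (le_of_eq ?_) (Real.exp_pos _).le
  rw [sum_congr rfl fun σ _ => indep_mul a σ (w σ) (hwm σ) h hhm (law σ)]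
  rw [← sum_mul, ← integral_finsetSum univ fun σ _ => hint2 σ]
  have : ∀ g : Fin M → Fin N → ℝ, ∑ σ, w σ (fun i => g i) = 1 := fun g => hw1 _
  simp only [this, integral_const, probReal_univ, smul_eq_mul, mul_one, one_mul]

end P157C
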