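import Vale.Agent.P157C.Step

namespace P157C

open MeasureTheory ProbabilityTheory Finset Filter Topology

/-- first `k` patterns with potential `f'`, the others with `f` -/
def hyb {M : ℕ} (f f' : ℝ → ℝ) (k : ℕ) : Fin M → ℝ → ℝ := fun a => if (a : ℕ) < k then f' else f

theorem tele {N M : ℕ} (f f' : ℝ → ℝ) (hf : Measurable f) (hf' : Measurable f') (K : ℝ)
    (hK : ∀ t, |f t| ≤ K) (hK' : ∀ t, |f' t| ≤ K)
    (law : ∀ σ : Fin N → Bool,
      (Measure.pi fun _ : Fin N => gaussianReal 0 1).map (dot σ) = gaussianReal 0 1)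
    (k : ℕ) (hk : k ≤ M) :
    ∫ g, Real.log (part (fun _ : Fin M => f) g) ∂(patterns N M)
      - ∫ g, Real.log (part (hyb f f' k : Fin M → ℝ → ℝ) g) ∂(patterns N M)
      ≤ k * (Real.exp (2 * K) * ∫ t, |f t - f' t| ∂(gaussianReal 0 1)) := by
  have hm : ∀ k, ∀ b : Fin M, Measurable ((hyb f f' k : Fin M → ℝ → ℝ) b) := by
    intro k b
    unfold hyb
    split_ifs
    · exact hf'
    · exact hf
  have hb : ∀ k, ∀ (b : Fin M) t, |(hyb f f' k : Fin M → ℝ → ℝ) b t| ≤ K := by
    intro k b t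
    unfold hyb
    split_ifs
    · exact hK' t
    · exact hK t
  induction k with
  | zero =>
    have : (hyb f f' 0 : Fin M → ℝ → ℝ) = fun _ => f := by
      funext a
      simp [hyb]
    rw [this]
    simp
  | succ k ih =>
    have ih' := ih (by omega)
    have hs := step_one (hyb f f' k : Fin M → ℝ → ℝ) (hyb f f' (k + 1)) ⟨k, by omega⟩
      (fun b hb' => by
        have hne : (b : ℕ) ≠ k := fun h => hb' (Fin.ext h)
        unfold hyb
        by_cases h1 : (b : ℕ) < k
        · rw [if_pos h1, if_pos (by omega)]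
        · rw [if_neg h1, if_neg (by omega)])
      (hm k) (hm (k + 1)) K (hb k) (hb (k + 1)) law
    have e1 : (hyb f f' k : Fin M → ℝ → ℝ) ⟨k, by omega⟩ = f := by simp [hyb]
    have e2 : (hyb f f' (k + 1) : Fin M → ℝ → ℝ) ⟨k, by omega⟩ = f' := by simp [hyb]
    rw [e1, e2] at hs
    push_cast
    linarith

theorem one_way {N M : ℕ} (f f' : ℝ → ℝ) (hf : Measurable f) (hf' : Measurable f') (K : ℝ)
    (hK : ∀ t, |f t| ≤ K) (hK' : ∀ t, |f' t| ≤ K)
    (law : ∀ σ : Fin N → Bool,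
      (Measure.pi fun _ : Fin N => gaussianReal 0 1).map (dot σ) = gaussianReal 0 1) :
    ∫ g, Real.log (part (fun _ : Fin M => f) g) ∂(patterns N M)
      - ∫ g, Real.log (part (fun _ : Fin M => f') g) ∂(patterns N M)
      ≤ M * (Real.exp (2 * K) * ∫ t, |f t - f' t| ∂(gaussianReal 0 1)) := by
  have h := tele f f' hf hf' K hK hK' law M le_rfl
  have : (hyb f f' M : Fin M → ℝ → ℝ) = fun _ => f' := by
    funext a
    simp [hyb]
  rwa [this] at h

theorem lip (law : ∀ (N : ℕ), 0 < N → ∀ σ : Fin N → Bool,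
      (Measure.pi fun _ : Fin N => gaussianReal 0 1).map (dot σ) = gaussianReal 0 1)
    (α : ℝ) (hα : 0 ≤ α) (f f' : ℝ → ℝ) (hf : Measurable f) (hf' : Measurable f') (K : ℝ)
    (hK : ∀ t, |f t| ≤ K) (hK' : ∀ t, |f' t| ≤ K) (N : ℕ) (hN : 0 < N) :
    |meanPressure α f N - meanPressure α f' N|
      ≤ α * Real.exp (2 * K) * ∫ t, |f t - f' t| ∂(gaussianReal 0 1) := by
  have hN' : (0 : ℝ) < N := by exact_mod_cast hN
  set M : ℕ := ⌊α * N⌋₊ with hM
  have hMle : (M : ℝ) ≤ α * N := Nat.floor_le (by positivity)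
  set D : ℝ := ∫ t, |f t - f' t| ∂(gaussianReal 0 1) with hD
  have hD0 : 0 ≤ D := integral_nonneg fun t => abs_nonneg _
  have h1 := one_way (N := N) (M := M) f f' hf hf' K hK hK' (law N hN)
  have h2 := one_way (N := N) (M := M) f' f hf' hf K hK' hK (law N hN)
  have hsym : ∫ t, |f' t - f t| ∂(gaussianReal 0 1) = D := by
    rw [hD]
    exact integral_congr_ae (Eventually.of_forall fun t => abs_sub_comm _ _)
  rw [hsym] at h2
  have hE0 : 0 ≤ Real.exp (2 * K) * D := mul_nonneg (Real.exp_pos _).le hD0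
  have hbd : (M : ℝ) * (Real.exp (2 * K) * D) ≤ α * N * (Real.exp (2 * K) * D) :=
    mul_le_mul_of_nonneg_right hMle hE0
  unfold meanPressure
  rw [integral_const_mul, integral_const_mul, ← mul_sub, abs_mul,
    abs_of_nonneg (by positivity : (0 : ℝ) ≤ 1 / N)]
  have habs : |∫ g, Real.log (part (fun _ : Fin M => f) g) ∂(patterns N M)
      - ∫ g, Real.log (part (fun _ : Fin M => f') g) ∂(patterns N M)|
      ≤ α * N * (Real.exp (2 * K) * D) := by
    rw [abs_le]
    constructor <;> linarith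
  calc 1 / (N : ℝ) * |∫ g, Real.log (part (fun _ : Fin M => f) g) ∂(patterns N M)
      - ∫ g, Real.log (part (fun _ : Fin M => f') g) ∂(patterns N M)|
      ≤ 1 / (N : ℝ) * (α * N * (Real.exp (2 * K) * D)) :=
        mul_le_mul_of_nonneg_left habs (by positivity)
    _ = α * Real.exp (2 * K) * D := by
        field_simp

theorem closure_lim (law : ∀ (N : ℕ), 0 < N → ∀ σ : Fin N → Bool,
      (Measure.pi fun _ : Fin N => gaussianReal 0 1).map (dot σ) = gaussianReal 0 1)
    (α : ℝ) (hα : 0 ≤ α) (K : ℝ) (fk : ℕ → ℝ → ℝ) (f : ℝ → ℝ) (hfk : ∀ k, Measurable (fk k))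
    (hf : Measurable f) (hKk : ∀ k t, |fk k t| ≤ K) (hK : ∀ t, |f t| ≤ K)
    (hconv : Tendsto (fun k => ∫ t, |fk k t - f t| ∂(gaussianReal 0 1)) atTop (𝓝 0))
    (l : ℕ → ℝ) (hl : ∀ k, Tendsto (meanPressure α (fk k)) atTop (𝓝 (l k))) :
    ∃ L : ℝ, Tendsto l atTop (𝓝 L) ∧ Tendsto (meanPressure α f) atTop (𝓝 L) := by
  set c : ℝ := α * Real.exp (2 * K) with hc
  have hc0 : 0 ≤ c := mul_nonneg hα (Real.exp_pos _).le
  set d : ℕ → ℝ := fun k => ∫ t, |fk k t - f t| ∂(gaussianReal 0 1) with hd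
  have hcl : ∀ k N, 0 < N → |meanPressure α (fk k) N - meanPressure α f N| ≤ c * d k :=
    fun k N hN => lip law α hα (fk k) f (hfk k) hf K (hKk k) hK N hN
  -- the mean pressures of `f` form a Cauchy sequence
  have hcau : CauchySeq (meanPressure α f) := by
    rw [Metric.cauchySeq_iff']
    intro ε hε
    have h1 : Tendsto (fun k => c * d k) atTop (𝓝 (c * 0)) := hconv.const_mul c
    rw [mul_zero] at h1
    obtain ⟨k, hk⟩ := ((tendsto_order.1 h1).2 (ε / 4) (by positivity)).exists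
    have h2 := (hl k).cauchySeq
    rw [Metric.cauchySeq_iff'] at h2
    obtain ⟨N0, hN0⟩ := h2 (ε / 4) (by positivity)
    have h3 := (Metric.cauchySeq_iff.1 (hl k).cauchySeq) (ε / 4) (by positivity)
    obtain ⟨N1, hN1⟩ := h3
    refine ⟨max N1 1, fun n hn => ?_⟩
    have e1 := hN1 n (le_trans (le_max_left _ _) hn) (max N1 1) (le_max_left _ _)
    rw [Real.dist_eq] at e1 ⊢
    have e2 := hcl k n (lt_of_lt_of_le one_pos (le_trans (le_max_right _ _) hn))
    have e3 := hcl k (max N1 1) (lt_of_lt_of_le one_pos (le_max_right _ _))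
    rw [abs_le] at e2 e3
    rw [abs_lt] at e1 ⊢
    constructor <;> linarith [e1.1, e1.2, e2.1, e2.2, e3.1, e3.2]
  obtain ⟨L, hL⟩ := cauchySeq_tendsto_of_complete hcau
  refine ⟨L, ?_, hL⟩
  have hlk : ∀ k, |l k - L| ≤ c * d k := by
    intro k
    have h1 : Tendsto (fun N => |meanPressure α (fk k) N - meanPressure α f N|) atTop
        (𝓝 |l k - L|) := ((hl k).sub hL).abs
    refine le_of_tendsto h1 ?_
    filter_upwards [eventually_gt_atTop 0] with N hN
    exact hcl k N hN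
  rw [tendsto_iff_dist_tendsto_zero]
  have h1 : Tendsto (fun k => c * d k) atTop (𝓝 (c * 0)) := hconv.const_mul c
  rw [mul_zero] at h1
  exact squeeze_zero (fun k => dist_nonneg) (fun k => by rw [Real.dist_eq]; exact hlk k) h1

end P157C
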